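import Vale.Agent.P078.Final

namespace Vale.Agent.Results.P078.A_full

open Vale.Agent.P078

universe u

theorem result : ∃ C : ℝ, ∀ (H : Type u) [NormedAddCommGroup H] [InnerProductSpace ℂ H]
    [CompleteSpace H] (M : VonNeumannAlgebra H) (A : StarSubalgebra ℂ (H →L[ℂ] H)), IsMASA M A →
    ∀ ε : ℝ, 0 < ε → ε < 1 → ∃ n : ℕ, pavingNumber M A ε = n ∧ (n : ℝ) ≤ C / ε ^ 2 := by
  obtain ⟨C, -, hC⟩ := so_paving.{u}
  refine ⟨C, fun H _ _ _ M A hA ε h0 h1 => ?_⟩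
  obtain ⟨r, hr1, hr, h⟩ := hC ε h0 h1
  have hle : pavingNumber M A ε ≤ r := sInf_le ⟨r, rfl, hr1, h H M A hA⟩
  have hne : pavingNumber M A ε ≠ ⊤ := ne_top_of_le_ne_top (ENat.natCast_ne_top r) hle
  obtain ⟨n, hn⟩ := ENat.ne_top_iff_exists.1 hne
  refine ⟨n, hn.symm, le_trans ?_ hr⟩
  rw [← hn] at hle
  exact_mod_cast hle

end Vale.Agent.Results.P078.A_full
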